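import Vale.Agent.Lib.P137.Sobolev
import Vale.Agent.Lib.P137.FullBV
import Vale.Agent.Lib.P137.BD.FinalBD
import Vale.Agent.Lib.P137.BD.GradBD
import Vale.Agent.Lib.P137.BDn.FinalN

/-!
# P137: the centred maximal function; radially nonincreasing input, block-decreasing input
comparable to a radial profile (all `d ≥ 2`), and general block-decreasing input (`d = 2`)

With `Mf` the centred Hardy-Littlewood maximal function:

1. radial, `C¹` Lipschitz integrable: `Mf` finite, Lipschitz,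
   `∫ |∇Mf| ≤ 8 d⁴ (2^(d-1) + d 3^d) ∫ |∇f|`;
2. every `d ≥ 2`, block-decreasing, `F (b |x|) ≤ f x ≤ F (a |x|)`, integrable, `∫ f div φ ≤ V`:
   `‖Mf(· + h) - Mf‖_{L¹} ≤ C V |h|` and `∫ Mf div φ ≤ d C V` with `C = C(d, a, b)`;
3. block-decreasing in the plane, integrable, `‖f(· + h) - f‖_{L¹} ≤ V |h|`:
   `‖Mf(· + h) - Mf‖_{L¹} ≤ 112 V |h|` and `∫ Mf div φ ≤ 224 V`;
4. block-decreasing in the plane, `C¹` Lipschitz integrable: `∫ |∇Mf| ≤ 224 ∫ |∇f|`.
-/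

namespace Vale.Agent.Results.P137.A000_Union

open MeasureTheory Metric Set
open scoped ENNReal NNReal

/-- Statement (1): the gradient bound for `C¹` Lipschitz radially nonincreasing input. -/
def T1 : Prop :=
    ∀ (d : ℕ) (_ : 2 ≤ d) (F : ℝ → ℝ) (_ : Antitone F) (_ : ∀ r, 0 ≤ F r)
      (_ : ContDiff ℝ 1 (fun x : EuclideanSpace ℝ (Fin d) => F ‖x‖)) (L : ℝ≥0)
      (_ : LipschitzWith L (fun x : EuclideanSpace ℝ (Fin d) => F ‖x‖))
      (_ : Integrable (fun x : EuclideanSpace ℝ (Fin d) => F ‖x‖) volume),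
      (∀ x, _root_.P137.maxFun
        (fun z : EuclideanSpace ℝ (Fin d) => ENNReal.ofReal (F ‖z‖)) x ≠ ∞) ∧
      LipschitzWith L
        (fun x => (_root_.P137.maxFun
          (fun z : EuclideanSpace ℝ (Fin d) => ENNReal.ofReal (F ‖z‖)) x).toReal) ∧
      ∫⁻ x, ‖fderiv ℝ (fun x => (_root_.P137.maxFun
          (fun z : EuclideanSpace ℝ (Fin d) => ENNReal.ofReal (F ‖z‖)) x).toReal) x‖ₑ ≤
        8 * (d : ℝ≥0∞) ^ 4 * (2 ^ (d - 1) + d * 3 ^ d) *
          ∫⁻ x, ‖fderiv ℝ (fun x : EuclideanSpace ℝ (Fin d) => F ‖x‖) x‖ₑ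

/-- Statement (2): the variation bound in every dimension for block-decreasing input trapped
between two dilates of a radial nonincreasing profile. -/
def N : Prop :=
    ∀ (d : ℕ) (_ : 2 ≤ d) (a b : ℝ) (_ : 0 < a) (_ : 0 < b),
    ∃ C : ℝ≥0, ∀ (f : EuclideanSpace ℝ (Fin d) → ℝ≥0∞), Measurable f →
      (∀ x y : EuclideanSpace ℝ (Fin d), (∀ i, |x i| ≤ |y i|) → f y ≤ f x) →
      ∫⁻ x, f x ≠ ∞ → ∀ (F : ℝ → ℝ≥0∞), Antitone F →
      (∀ x, F (b * ‖x‖) ≤ f x) → (∀ x, f x ≤ F (a * ‖x‖)) → ∀ (V : ℝ≥0),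
      (∀ φ : EuclideanSpace ℝ (Fin d) → EuclideanSpace ℝ (Fin d), ContDiff ℝ 1 φ →
        HasCompactSupport φ → (∀ x, ‖φ x‖ ≤ 1) →
        ∫ x, (f x).toReal * ∑ i : Fin d, (fderiv ℝ φ x (EuclideanSpace.single i 1)) i ≤ V) →
      (∀ x y : EuclideanSpace ℝ (Fin d), (∀ i, |x i| ≤ |y i|) →
        _root_.P137.maxFun f y ≤ _root_.P137.maxFun f x) ∧
      LocallyIntegrable (fun x => (_root_.P137.maxFun f x).toReal) volume ∧
      (∀ h : EuclideanSpace ℝ (Fin d),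
        ∫⁻ x, ((_root_.P137.maxFun f x - _root_.P137.maxFun f (x + h)) +
            (_root_.P137.maxFun f (x + h) - _root_.P137.maxFun f x)) ≤
          C * V * ENNReal.ofReal ‖h‖) ∧
      ∀ φ : EuclideanSpace ℝ (Fin d) → EuclideanSpace ℝ (Fin d), ContDiff ℝ 1 φ →
        HasCompactSupport φ → (∀ x, ‖φ x‖ ≤ 1) →
        ∫ x, (_root_.P137.maxFun f x).toReal *
            ∑ i : Fin d, (fderiv ℝ φ x (EuclideanSpace.single i 1)) i ≤ d * (C * V)

/-- Statement (3): the variation bound for block-decreasing input in the plane. -/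
def T3 : Prop :=
    ∀ (f : EuclideanSpace ℝ (Fin 2) → ℝ≥0∞) (_ : Measurable f)
      (_ : ∀ x y : EuclideanSpace ℝ (Fin 2), (∀ i, |x i| ≤ |y i|) → f y ≤ f x)
      (_ : ∫⁻ x, f x ≠ ∞) (V : ℝ≥0)
      (_ : ∀ h : EuclideanSpace ℝ (Fin 2),
        ∫⁻ x, ((f x - f (x + h)) + (f (x + h) - f x)) ≤ V * ENNReal.ofReal ‖h‖),
      (∀ x y : EuclideanSpace ℝ (Fin 2), (∀ i, |x i| ≤ |y i|) →
        _root_.P137.maxFun f y ≤ _root_.P137.maxFun f x) ∧
      LocallyIntegrable (fun x => (_root_.P137.maxFun f x).toReal) volume ∧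
      (∀ h : EuclideanSpace ℝ (Fin 2),
        ∫⁻ x, ((_root_.P137.maxFun f x - _root_.P137.maxFun f (x + h)) +
            (_root_.P137.maxFun f (x + h) - _root_.P137.maxFun f x)) ≤
          112 * V * ENNReal.ofReal ‖h‖) ∧
      (∀ φ : EuclideanSpace ℝ (Fin 2) → EuclideanSpace ℝ (Fin 2), ContDiff ℝ 1 φ →
        HasCompactSupport φ → (∀ x, ‖φ x‖ ≤ 1) →
        ∫ x, (_root_.P137.maxFun f x).toReal *
            ∑ i : Fin 2, (fderiv ℝ φ x (EuclideanSpace.single i 1)) i ≤ 224 * V)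

/-- Statement (4): the gradient bound for `C¹` Lipschitz block-decreasing input in the plane. -/
def T4 : Prop :=
    ∀ (f : EuclideanSpace ℝ (Fin 2) → ℝ) (_ : ∀ x, 0 ≤ f x)
      (_ : ∀ x y : EuclideanSpace ℝ (Fin 2), (∀ i, |x i| ≤ |y i|) → f y ≤ f x)
      (_ : ContDiff ℝ 1 f) (L : ℝ≥0) (_ : LipschitzWith L f) (_ : Integrable f volume),
      (∀ x, _root_.P137.maxFun (fun z => ENNReal.ofReal (f z)) x ≠ ∞) ∧
      LipschitzWith L (fun x => (_root_.P137.maxFun (fun z => ENNReal.ofReal (f z)) x).toReal) ∧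
      ∫⁻ x, ‖fderiv ℝ
          (fun x => (_root_.P137.maxFun (fun z => ENNReal.ofReal (f z)) x).toReal) x‖ₑ ≤
        224 * ∫⁻ x, ‖fderiv ℝ f x‖ₑ

theorem result : T1 ∧ N ∧ T3 ∧ T4 :=
  ⟨fun _ hd F hF _ hC1 L hL hint => _root_.P137.gradient_bound hd F hF hC1 L hL hint,
    fun _ hd a b ha hb => _root_.P137.quasi_radial_bv hd a b ha hb,
    fun f hf hBD hint V hV =>
      ⟨fun x y hxy => _root_.P137.maxFun_BD f hf hBD x y hxy,
        (_root_.P137.BD_full f hf hBD hint V hV).1,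
        fun h => _root_.P137.BD_dq f hf hBD hint V hV h,
        (_root_.P137.BD_full f hf hBD hint V hV).2⟩,
    fun f _ hBD hC1 L hL hint => _root_.P137.BD_gradient_bound f hBD hC1 L hL hint⟩

end Vale.Agent.Results.P137.A000_Union
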