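import Vale.Agent.Lib.P137.BDn.FinalN

/-!
# P137: variation bound for the centred maximal function, every dimension `d ≥ 2`,
block-decreasing functions comparable to a radial profile

Let `d ≥ 2` and `a, b > 0`. There is a constant `C = C(d, b / a)` such that for every measurable,
integrable, block-decreasing `f ≥ 0` on `ℝ^d` which is trapped between two dilates of a radial
nonincreasing profile, `F (b |x|) ≤ f x ≤ F (a |x|)`, and whose variation is at most `V`
(`∫ f div φ ≤ V` for all `C¹` compactly supported fields with `|φ| ≤ 1`), the centred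
Hardy-Littlewood maximal function `Mf` (Euclidean balls) is block-decreasing, locally integrable,
`‖Mf(· + h) - Mf‖_{L¹} ≤ C V |h|`, and `∫ Mf div φ ≤ d C V` for all such fields.
Every nonincreasing function of an unconditional norm (for instance an `ℓ^p` norm) is covered.
-/

namespace Vale.Agent.Results.P137.A00_NormDecreasing

open MeasureTheory Metric Set
open scoped ENNReal NNReal

theorem result (d : ℕ) (hd : 2 ≤ d) (a b : ℝ) (ha : 0 < a) (hb : 0 < b) :
    ∃ C : ℝ≥0, ∀ (f : EuclideanSpace ℝ (Fin d) → ℝ≥0∞), Measurable f →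
      (∀ x y : EuclideanSpace ℝ (Fin d), (∀ i, |x i| ≤ |y i|) → f y ≤ f x) →
      ∫⁻ x, f x ≠ ∞ → ∀ (F : ℝ → ℝ≥0∞), Antitone F →
      (∀ x, F (b * ‖x‖) ≤ f x) → (∀ x, f x ≤ F (a * ‖x‖)) → ∀ (V : ℝ≥0),
      (∀ φ : EuclideanSpace ℝ (Fin d) → EuclideanSpace ℝ (Fin d), ContDiff ℝ 1 φ →
        HasCompactSupport φ → (∀ x, ‖φ x‖ ≤ 1) →
        ∫ x, (f x).toReal * ∑ i : Fin d, (fderiv ℝ φ x (EuclideanSpace.single i 1)) i ≤ V) →
      (∀ x y : EuclideanSpace ℝ (Fin d), (∀ i, |x i| ≤ |y i|) →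
        _root_.P137.maxFun f y ≤ _root_.P137.maxFun f x) ∧
      LocallyIntegrable (fun x => (_root_.P137.maxFun f x).toReal) volume ∧
      (∀ h : EuclideanSpace ℝ (Fin d),
        ∫⁻ x, ((_root_.P137.maxFun f x - _root_.P137.maxFun f (x + h)) +
            (_root_.P137.maxFun f (x + h) - _root_.P137.maxFun f x)) ≤
          C * V * ENNReal.ofReal ‖h‖) ∧
      ∀ φ : EuclideanSpace ℝ (Fin d) → EuclideanSpace ℝ (Fin d), ContDiff ℝ 1 φ →
        HasCompactSupport φ → (∀ x, ‖φ x‖ ≤ 1) →
        ∫ x, (_root_.P137.maxFun f x).toReal *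
            ∑ i : Fin d, (fderiv ℝ φ x (EuclideanSpace.single i 1)) i ≤ d * (C * V) :=
  _root_.P137.quasi_radial_bv hd a b ha hb

end Vale.Agent.Results.P137.A00_NormDecreasing
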