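import Vale.Agent.Lib.P137.Sobolev
import Vale.Agent.Lib.P137.Main
import Vale.Agent.Lib.P137.FullBV
import Vale.Agent.Lib.P137.Full

/-!
# P137: the centred maximal function of radially nonincreasing functions, all our results

For `f x = F ‖x‖` on `ℝ^d` with `F` nonincreasing and the centred Hardy-Littlewood maximal
function `Mf`:

1. (`d ≥ 2`, `f` of class `C¹`, Lipschitz, integrable) `Mf` is finite, Lipschitz with the same
   constant and `∫ |∇Mf| ≤ 8 d⁴ K_d ∫ |∇f|`, where `K_d = 2^(d-1) + d 3^d`;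
2. (`d ≥ 2`, `f` integrable, `∫ f div φ ≤ V` for all `C¹` compactly supported fields `|φ| ≤ 1`)
   `Mf` is radially nonincreasing, finite off the origin, locally integrable and
   `∫ Mf div φ ≤ 2 d² K_d V` for all such fields;
3. (`d ≥ 2`, `f` integrable, `‖f(· + h) - f‖_{L¹} ≤ V |h|`) the same qualitative facts,
   `‖Mf(· + h) - Mf‖_{L¹} ≤ 8 d³ K_d V |h|` and `∫ Mf div φ ≤ 8 d⁴ K_d V`;
4. (`d ≥ 1`) `Mf` is radially nonincreasing and `∫ Mf / |x| ≤ K_d ∫ f / |x|`.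
-/

namespace Vale.Agent.Results.P137.A_Combined

open MeasureTheory Metric Set
open scoped ENNReal NNReal

/-- Statement (1): the gradient bound for `C¹` Lipschitz radially nonincreasing input. -/
def S1 : Prop :=
    ∀ (d : ℕ) (_ : 2 ≤ d) (F : ℝ → ℝ) (_ : Antitone F) (_ : ∀ r, 0 ≤ F r)
      (_ : ContDiff ℝ 1 (fun x : EuclideanSpace ℝ (Fin d) => F ‖x‖)) (L : ℝ≥0)
      (_ : LipschitzWith L (fun x : EuclideanSpace ℝ (Fin d) => F ‖x‖))
      (_ : Integrable (fun x : EuclideanSpace ℝ (Fin d) => F ‖x‖) volume),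
      (∀ x, _root_.P137.maxFun
        (fun z : EuclideanSpace ℝ (Fin d) => ENNReal.ofReal (F ‖z‖)) x ≠ ∞) ∧
      LipschitzWith L
        (fun x => (_root_.P137.maxFun
          (fun z : EuclideanSpace ℝ (Fin d) => ENNReal.ofReal (F ‖z‖)) x).toReal) ∧
      ∫⁻ x, ‖fderiv ℝ (fun x => (_root_.P137.maxFun
          (fun z : EuclideanSpace ℝ (Fin d) => ENNReal.ofReal (F ‖z‖)) x).toReal) x‖ₑ ≤
        8 * (d : ℝ≥0∞) ^ 4 * (2 ^ (d - 1) + d * 3 ^ d) *
          ∫⁻ x, ‖fderiv ℝ (fun x : EuclideanSpace ℝ (Fin d) => F ‖x‖) x‖ₑ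

/-- Statement (2): the variation bound, hypothesis and conclusion tested against fields. -/
def S2 : Prop :=
    ∀ (d : ℕ) (_ : 2 ≤ d) (F : ℝ → ℝ≥0∞) (_ : Antitone F)
      (_ : ∫⁻ x : EuclideanSpace ℝ (Fin d), F ‖x‖ ≠ ∞) (V : ℝ≥0)
      (_ : ∀ φ : EuclideanSpace ℝ (Fin d) → EuclideanSpace ℝ (Fin d), ContDiff ℝ 1 φ →
        HasCompactSupport φ → (∀ x, ‖φ x‖ ≤ 1) →
        ∫ x, (F ‖x‖).toReal * ∑ i : Fin d, (fderiv ℝ φ x (EuclideanSpace.single i 1)) i ≤ V),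
      (∀ x y : EuclideanSpace ℝ (Fin d), ‖x‖ ≤ ‖y‖ →
        _root_.P137.maxFun (fun z : EuclideanSpace ℝ (Fin d) => F ‖z‖) y ≤
          _root_.P137.maxFun (fun z : EuclideanSpace ℝ (Fin d) => F ‖z‖) x) ∧
      (∀ x : EuclideanSpace ℝ (Fin d), x ≠ 0 →
        _root_.P137.maxFun (fun z : EuclideanSpace ℝ (Fin d) => F ‖z‖) x ≠ ∞) ∧
      LocallyIntegrable
        (fun x => (_root_.P137.maxFun (fun z : EuclideanSpace ℝ (Fin d) => F ‖z‖) x).toReal)
        volume ∧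
      (∀ φ : EuclideanSpace ℝ (Fin d) → EuclideanSpace ℝ (Fin d), ContDiff ℝ 1 φ →
        HasCompactSupport φ → (∀ x, ‖φ x‖ ≤ 1) →
        ∫ x, (_root_.P137.maxFun (fun z : EuclideanSpace ℝ (Fin d) => F ‖z‖) x).toReal *
            ∑ i : Fin d, (fderiv ℝ φ x (EuclideanSpace.single i 1)) i ≤
          d * (2 * (d : ℝ) * (2 ^ (d - 1) + d * 3 ^ d) * V))

/-- Statement (3): the variation bound in terms of translations. -/
def S3 : Prop :=
    ∀ (d : ℕ) (_ : 2 ≤ d) (F : ℝ → ℝ≥0∞) (_ : Antitone F)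
      (_ : ∫⁻ x : EuclideanSpace ℝ (Fin d), F ‖x‖ ≠ ∞) (V : ℝ≥0)
      (_ : ∀ h : EuclideanSpace ℝ (Fin d),
        ∫⁻ x : EuclideanSpace ℝ (Fin d), ((F ‖x‖ - F ‖x + h‖) + (F ‖x + h‖ - F ‖x‖)) ≤
          V * ENNReal.ofReal ‖h‖),
      (∀ x y : EuclideanSpace ℝ (Fin d), ‖x‖ ≤ ‖y‖ →
        _root_.P137.maxFun (fun z : EuclideanSpace ℝ (Fin d) => F ‖z‖) y ≤
          _root_.P137.maxFun (fun z : EuclideanSpace ℝ (Fin d) => F ‖z‖) x) ∧
      (∀ x : EuclideanSpace ℝ (Fin d), x ≠ 0 →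
        _root_.P137.maxFun (fun z : EuclideanSpace ℝ (Fin d) => F ‖z‖) x ≠ ∞) ∧
      LocallyIntegrable
        (fun x => (_root_.P137.maxFun (fun z : EuclideanSpace ℝ (Fin d) => F ‖z‖) x).toReal)
        volume ∧
      (∀ h : EuclideanSpace ℝ (Fin d),
        ∫⁻ x : EuclideanSpace ℝ (Fin d),
          ((_root_.P137.maxFun (fun z : EuclideanSpace ℝ (Fin d) => F ‖z‖) x -
              _root_.P137.maxFun (fun z : EuclideanSpace ℝ (Fin d) => F ‖z‖) (x + h)) +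
            (_root_.P137.maxFun (fun z : EuclideanSpace ℝ (Fin d) => F ‖z‖) (x + h) -
              _root_.P137.maxFun (fun z : EuclideanSpace ℝ (Fin d) => F ‖z‖) x)) ≤
        8 * (d : ℝ≥0∞) ^ 3 * (2 ^ (d - 1) + d * 3 ^ d) * V * ENNReal.ofReal ‖h‖) ∧
      (∀ φ : EuclideanSpace ℝ (Fin d) → EuclideanSpace ℝ (Fin d), ContDiff ℝ 1 φ →
        HasCompactSupport φ → (∀ x, ‖φ x‖ ≤ 1) →
        ∫ x, (_root_.P137.maxFun (fun z : EuclideanSpace ℝ (Fin d) => F ‖z‖) x).toReal *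
            ∑ i : Fin d, (fderiv ℝ φ x (EuclideanSpace.single i 1)) i ≤
          d * (8 * (d : ℝ) ^ 3 * (2 ^ (d - 1) + d * 3 ^ d) * V))

/-- Statement (4): monotonicity and the weighted inequality. -/
def S4 : Prop :=
    ∀ (d : ℕ) (_ : 1 ≤ d) (F : ℝ → ℝ≥0∞) (_ : Antitone F),
      (∀ x y : EuclideanSpace ℝ (Fin d), ‖x‖ ≤ ‖y‖ →
        _root_.P137.maxFun (fun z : EuclideanSpace ℝ (Fin d) => F ‖z‖) y ≤
          _root_.P137.maxFun (fun z : EuclideanSpace ℝ (Fin d) => F ‖z‖) x) ∧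
      ∫⁻ x : EuclideanSpace ℝ (Fin d),
          _root_.P137.maxFun (fun z : EuclideanSpace ℝ (Fin d) => F ‖z‖) x / ENNReal.ofReal ‖x‖ ≤
        (2 ^ (d - 1) + d * 3 ^ d) *
          ∫⁻ x : EuclideanSpace ℝ (Fin d), F ‖x‖ / ENNReal.ofReal ‖x‖

theorem result : S1 ∧ S2 ∧ S3 ∧ S4 :=
  ⟨fun _ hd F hF _ hC1 L hL hint => _root_.P137.gradient_bound hd F hF hC1 L hL hint,
    fun _ hd F hF hint V hV =>
      ⟨fun x y hxy => _root_.P137.maxFun_anti F hF x y hxy,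
        fun x hx => _root_.P137.maxFun_ne_top F hF hint x hx,
        (_root_.P137.variation_bv hd F hF hint V hV).1,
        (_root_.P137.variation_bv hd F hF hint V hV).2⟩,
    fun _ hd F hF hint V hV =>
      ⟨fun x y hxy => _root_.P137.maxFun_anti F hF x y hxy,
        fun x hx => _root_.P137.maxFun_ne_top F hF hint x hx,
        (_root_.P137.variation_full hd F hF hint V hV).1,
        fun h => _root_.P137.variation_le hd F hF hint V hV h,
        (_root_.P137.variation_full hd F hF hint V hV).2⟩,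
    fun _ hd F hF => ⟨fun x y hxy => _root_.P137.maxFun_anti F hF x y hxy,
      _root_.P137.weighted_le hd F hF⟩⟩

end Vale.Agent.Results.P137.A_Combined
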