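import Vale.Agent.Lib.P137.BD.FinalBD

/-!
# P137: variation bound for the centred maximal function of block-decreasing functions in the plane

Let `f ≥ 0` on `ℝ²` be measurable, integrable and block-decreasing (`|x_i| ≤ |y_i|` for `i = 1, 2`
implies `f y ≤ f x`), and suppose that `‖f(· + h) - f‖_{L¹} ≤ V |h|` for all `h`. Then the centred
Hardy-Littlewood maximal function `Mf` (Euclidean discs) is block-decreasing, locally integrable,
`‖Mf(· + h) - Mf‖_{L¹} ≤ 112 V |h|`, and `∫ Mf div φ ≤ 224 V` for every `C¹` compactly supported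
field `φ` with `|φ| ≤ 1`.
-/

namespace Vale.Agent.Results.P137.BlockDecreasingPlane

open MeasureTheory Metric Set
open scoped ENNReal NNReal

theorem result (f : EuclideanSpace ℝ (Fin 2) → ℝ≥0∞) (hf : Measurable f)
    (hBD : ∀ x y : EuclideanSpace ℝ (Fin 2), (∀ i, |x i| ≤ |y i|) → f y ≤ f x)
    (hint : ∫⁻ x, f x ≠ ∞) (V : ℝ≥0)
    (hV : ∀ h : EuclideanSpace ℝ (Fin 2),
      ∫⁻ x, ((f x - f (x + h)) + (f (x + h) - f x)) ≤ V * ENNReal.ofReal ‖h‖) :
    (∀ x y : EuclideanSpace ℝ (Fin 2), (∀ i, |x i| ≤ |y i|) →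
      _root_.P137.maxFun f y ≤ _root_.P137.maxFun f x) ∧
    LocallyIntegrable (fun x => (_root_.P137.maxFun f x).toReal) volume ∧
    (∀ h : EuclideanSpace ℝ (Fin 2),
      ∫⁻ x, ((_root_.P137.maxFun f x - _root_.P137.maxFun f (x + h)) +
          (_root_.P137.maxFun f (x + h) - _root_.P137.maxFun f x)) ≤
        112 * V * ENNReal.ofReal ‖h‖) ∧
    (∀ φ : EuclideanSpace ℝ (Fin 2) → EuclideanSpace ℝ (Fin 2), ContDiff ℝ 1 φ →
      HasCompactSupport φ → (∀ x, ‖φ x‖ ≤ 1) →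
      ∫ x, (_root_.P137.maxFun f x).toReal *
          ∑ i : Fin 2, (fderiv ℝ φ x (EuclideanSpace.single i 1)) i ≤ 224 * V) :=
  ⟨fun x y hxy => _root_.P137.maxFun_BD f hf hBD x y hxy,
    (_root_.P137.BD_full f hf hBD hint V hV).1,
    fun h => _root_.P137.BD_dq f hf hBD hint V hV h,
    (_root_.P137.BD_full f hf hBD hint V hV).2⟩

end Vale.Agent.Results.P137.BlockDecreasingPlane
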