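import Vale.Agent.Lib.P137.BD.GradBD

/-!
# P137: the inequality of Q1 in the plane for the centred operator, `C¹` Lipschitz block-decreasing input

Let `f ≥ 0` on `ℝ²` be of class `C¹`, Lipschitz, integrable and block-decreasing. Then the centred
Hardy-Littlewood maximal function `Mf` is finite, Lipschitz with the same constant, and
`∫ |∇Mf| ≤ 224 ∫ |∇f|`.
-/

namespace Vale.Agent.Results.P137.BlockGradientPlane

open MeasureTheory Metric Set
open scoped ENNReal NNReal

theorem result (f : EuclideanSpace ℝ (Fin 2) → ℝ) (_hf0 : ∀ x, 0 ≤ f x)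
    (hBD : ∀ x y : EuclideanSpace ℝ (Fin 2), (∀ i, |x i| ≤ |y i|) → f y ≤ f x)
    (hC1 : ContDiff ℝ 1 f) (L : ℝ≥0) (hL : LipschitzWith L f) (hint : Integrable f volume) :
    (∀ x, _root_.P137.maxFun (fun z => ENNReal.ofReal (f z)) x ≠ ∞) ∧
    LipschitzWith L (fun x => (_root_.P137.maxFun (fun z => ENNReal.ofReal (f z)) x).toReal) ∧
    ∫⁻ x, ‖fderiv ℝ
        (fun x => (_root_.P137.maxFun (fun z => ENNReal.ofReal (f z)) x).toReal) x‖ₑ ≤
      224 * ∫⁻ x, ‖fderiv ℝ f x‖ₑ :=
  _root_.P137.BD_gradient_bound f hBD hC1 L hL hint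

end Vale.Agent.Results.P137.BlockGradientPlane
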