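import Vale.Agent.Lib.P137.Sobolev

/-!
# P137: the inequality of Q1 for the centred operator, `C¹` Lipschitz radially nonincreasing input

Let `d ≥ 2` and `f x = F ‖x‖ ≥ 0` on `ℝ^d` with `F` nonincreasing, `f` of class `C¹`, Lipschitz and
integrable. Then the centred Hardy-Littlewood maximal function `Mf` is finite and Lipschitz with the
same constant, and `∫ |∇Mf| ≤ C_d ∫ |∇f|` with `C_d = 8 d⁴ (2^(d-1) + d 3^d)`.
-/

namespace Vale.Agent.Results.P137.GradientBound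

open MeasureTheory Metric Set
open scoped ENNReal NNReal

theorem result (d : ℕ) (hd : 2 ≤ d) (F : ℝ → ℝ) (hF : Antitone F) (_hF0 : ∀ r, 0 ≤ F r)
    (hC1 : ContDiff ℝ 1 (fun x : EuclideanSpace ℝ (Fin d) => F ‖x‖)) (L : ℝ≥0)
    (hL : LipschitzWith L (fun x : EuclideanSpace ℝ (Fin d) => F ‖x‖))
    (hint : Integrable (fun x : EuclideanSpace ℝ (Fin d) => F ‖x‖) volume) :
    (∀ x, _root_.P137.maxFun
      (fun z : EuclideanSpace ℝ (Fin d) => ENNReal.ofReal (F ‖z‖)) x ≠ ∞) ∧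
    LipschitzWith L
      (fun x => (_root_.P137.maxFun
        (fun z : EuclideanSpace ℝ (Fin d) => ENNReal.ofReal (F ‖z‖)) x).toReal) ∧
    ∫⁻ x, ‖fderiv ℝ (fun x => (_root_.P137.maxFun
        (fun z : EuclideanSpace ℝ (Fin d) => ENNReal.ofReal (F ‖z‖)) x).toReal) x‖ₑ ≤
      8 * (d : ℝ≥0∞) ^ 4 * (2 ^ (d - 1) + d * 3 ^ d) *
        ∫⁻ x, ‖fderiv ℝ (fun x : EuclideanSpace ℝ (Fin d) => F ‖x‖) x‖ₑ :=
  _root_.P137.gradient_bound hd F hF hC1 L hL hint

end Vale.Agent.Results.P137.GradientBound
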