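import Vale.Agent.Lib.P137.FullBV

/-!
# P137: `|D Mf|(ℝ^d) ≤ C_d |Df|(ℝ^d)` for the centred maximal function, radially nonincreasing input

Let `d ≥ 2`, `f x = F ‖x‖` on `ℝ^d` with `F` nonincreasing, `f` integrable, and suppose that the
distributional gradient of `f` has total variation at most `V`, that is `∫ f div φ ≤ V` for every
`C¹` compactly supported field `φ` with `|φ| ≤ 1`. Then the centred Hardy-Littlewood maximal
function `Mf` is radially nonincreasing, finite off the origin, locally integrable, and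
`∫ Mf div φ ≤ C_d V` for every such field, with `C_d = 2 d² (2^(d-1) + d 3^d)`.
-/

namespace Vale.Agent.Results.P137.VariationBV

open MeasureTheory Metric Set
open scoped ENNReal NNReal

theorem result (d : ℕ) (hd : 2 ≤ d) (F : ℝ → ℝ≥0∞) (hF : Antitone F)
    (hint : ∫⁻ x : EuclideanSpace ℝ (Fin d), F ‖x‖ ≠ ∞) (V : ℝ≥0)
    (hV : ∀ φ : EuclideanSpace ℝ (Fin d) → EuclideanSpace ℝ (Fin d), ContDiff ℝ 1 φ →
      HasCompactSupport φ → (∀ x, ‖φ x‖ ≤ 1) →
      ∫ x, (F ‖x‖).toReal * ∑ i : Fin d, (fderiv ℝ φ x (EuclideanSpace.single i 1)) i ≤ V) :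
    (∀ x y : EuclideanSpace ℝ (Fin d), ‖x‖ ≤ ‖y‖ →
      _root_.P137.maxFun (fun z : EuclideanSpace ℝ (Fin d) => F ‖z‖) y ≤
        _root_.P137.maxFun (fun z : EuclideanSpace ℝ (Fin d) => F ‖z‖) x) ∧
    (∀ x : EuclideanSpace ℝ (Fin d), x ≠ 0 →
      _root_.P137.maxFun (fun z : EuclideanSpace ℝ (Fin d) => F ‖z‖) x ≠ ∞) ∧
    LocallyIntegrable
      (fun x => (_root_.P137.maxFun (fun z : EuclideanSpace ℝ (Fin d) => F ‖z‖) x).toReal)
      volume ∧
    (∀ φ : EuclideanSpace ℝ (Fin d) → EuclideanSpace ℝ (Fin d), ContDiff ℝ 1 φ →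
      HasCompactSupport φ → (∀ x, ‖φ x‖ ≤ 1) →
      ∫ x, (_root_.P137.maxFun (fun z : EuclideanSpace ℝ (Fin d) => F ‖z‖) x).toReal *
          ∑ i : Fin d, (fderiv ℝ φ x (EuclideanSpace.single i 1)) i ≤
        d * (2 * (d : ℝ) * (2 ^ (d - 1) + d * 3 ^ d) * V)) :=
  ⟨fun x y hxy => _root_.P137.maxFun_anti F hF x y hxy,
    fun x hx => _root_.P137.maxFun_ne_top F hF hint x hx,
    (_root_.P137.variation_bv hd F hF hint V hV).1,
    (_root_.P137.variation_bv hd F hF hint V hV).2⟩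

end Vale.Agent.Results.P137.VariationBV
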