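import Vale.Agent.Lib.P137.Full

/-!
# P137: variation bound for the centred maximal function of radially nonincreasing functions

Let `d ≥ 2`, `f x = F ‖x‖` on `ℝ^d` with `F` nonincreasing, `f` integrable, and suppose that
`‖f(· + h) - f‖_{L¹} ≤ V |h|` for all `h` (true with `V = ‖∇f‖_{L¹}` for `f ∈ W^{1,1}`, and with
`V = |Df|(ℝ^d)` for `f ∈ BV`). Then the centred Hardy-Littlewood maximal function `Mf` is radially
nonincreasing, finite off the origin, locally integrable, `‖Mf(· + h) - Mf‖_{L¹} ≤ C_d V |h|`, and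
`∫ Mf div φ ≤ d C_d V` for every `C¹` compactly supported field `φ` with `|φ| ≤ 1`, where
`C_d = 8 d³ (2^(d-1) + d 3^d)`.
-/

namespace Vale.Agent.Results.P137.VariationBound

open MeasureTheory Metric Set
open scoped ENNReal NNReal

theorem result (d : ℕ) (hd : 2 ≤ d) (F : ℝ → ℝ≥0∞) (hF : Antitone F)
    (hint : ∫⁻ x : EuclideanSpace ℝ (Fin d), F ‖x‖ ≠ ∞) (V : ℝ≥0)
    (hV : ∀ h : EuclideanSpace ℝ (Fin d),
      ∫⁻ x : EuclideanSpace ℝ (Fin d), ((F ‖x‖ - F ‖x + h‖) + (F ‖x + h‖ - F ‖x‖)) ≤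
        V * ENNReal.ofReal ‖h‖) :
    (∀ x y : EuclideanSpace ℝ (Fin d), ‖x‖ ≤ ‖y‖ →
      _root_.P137.maxFun (fun z : EuclideanSpace ℝ (Fin d) => F ‖z‖) y ≤
        _root_.P137.maxFun (fun z : EuclideanSpace ℝ (Fin d) => F ‖z‖) x) ∧
    (∀ x : EuclideanSpace ℝ (Fin d), x ≠ 0 →
      _root_.P137.maxFun (fun z : EuclideanSpace ℝ (Fin d) => F ‖z‖) x ≠ ∞) ∧
    LocallyIntegrable
      (fun x => (_root_.P137.maxFun (fun z : EuclideanSpace ℝ (Fin d) => F ‖z‖) x).toReal)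
      volume ∧
    (∀ h : EuclideanSpace ℝ (Fin d),
      ∫⁻ x : EuclideanSpace ℝ (Fin d),
        ((_root_.P137.maxFun (fun z : EuclideanSpace ℝ (Fin d) => F ‖z‖) x -
            _root_.P137.maxFun (fun z : EuclideanSpace ℝ (Fin d) => F ‖z‖) (x + h)) +
          (_root_.P137.maxFun (fun z : EuclideanSpace ℝ (Fin d) => F ‖z‖) (x + h) -
            _root_.P137.maxFun (fun z : EuclideanSpace ℝ (Fin d) => F ‖z‖) x)) ≤
      8 * (d : ℝ≥0∞) ^ 3 * (2 ^ (d - 1) + d * 3 ^ d) * V * ENNReal.ofReal ‖h‖) ∧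
    (∀ φ : EuclideanSpace ℝ (Fin d) → EuclideanSpace ℝ (Fin d), ContDiff ℝ 1 φ →
      HasCompactSupport φ → (∀ x, ‖φ x‖ ≤ 1) →
      ∫ x, (_root_.P137.maxFun (fun z : EuclideanSpace ℝ (Fin d) => F ‖z‖) x).toReal *
          ∑ i : Fin d, (fderiv ℝ φ x (EuclideanSpace.single i 1)) i ≤
        d * (8 * (d : ℝ) ^ 3 * (2 ^ (d - 1) + d * 3 ^ d) * V)) :=
  ⟨fun x y hxy => _root_.P137.maxFun_anti F hF x y hxy,
    fun x hx => _root_.P137.maxFun_ne_top F hF hint x hx,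
    (_root_.P137.variation_full hd F hF hint V hV).1,
    fun h => _root_.P137.variation_le hd F hF hint V hV h,
    (_root_.P137.variation_full hd F hF hint V hV).2⟩

end Vale.Agent.Results.P137.VariationBound
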